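import Mathlib

/-!
# P154: broadcasting with the Potts channel on the `d`-ary tree (finite model)

`Conf q d n` is the type of colourings of the `d ^ n` vertices at depth `n` of the rooted
`d`-ary tree by `q` colours: a depth-`0` configuration is the colour of the root itself, and a
depth-`(n+1)` configuration is a `d`-tuple of depth-`n` configurations, one for the subtree
below each child of the root.
-/

namespace Vale.Agent.Lib.P154

open Finset

/-- The `q`-state Potts channel: `chan q lam i j = lam * 1[i = j] + (1 - lam) / q`. -/
noncomputable def chan (q : ℕ) (lam : ℝ) (i j : Fin q) : ℝ :=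
  lam * (if i = j then 1 else 0) + (1 - lam) / q

/-- Colourings of level `n` of the rooted `d`-ary tree with `q` colours. -/
def Conf (q d : ℕ) : ℕ → Type
  | 0 => Fin q
  | n + 1 => Fin d → Conf q d n

instance Conf.instFintype (q d : ℕ) : (n : ℕ) → Fintype (Conf q d n)
  | 0 => inferInstanceAs (Fintype (Fin q))
  | n + 1 =>
    haveI := Conf.instFintype q d n
    inferInstanceAs (Fintype (Fin d → Conf q d n))

/-- `lik q d lam n i s` is the probability that the spins at depth `n` form the configuration
`s`, given that the root spin is `i`: each edge independently passes the spin of the parent to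
the child through the Potts channel. -/
noncomputable def lik (q d : ℕ) (lam : ℝ) : (n : ℕ) → Fin q → Conf q d n → ℝ
  | 0, i, s => if (show Fin q from s) = i then 1 else 0
  | n + 1, i, s => ∏ k : Fin d, ∑ j : Fin q, chan q lam i j * lik q d lam n j (s k)

/-- The probability of the depth-`n` configuration `s` when the root spin is uniform. -/
noncomputable def marg (q d : ℕ) (lam : ℝ) (n : ℕ) (s : Conf q d n) : ℝ :=
  ∑ i : Fin q, (1 / (q : ℝ)) * lik q d lam n i s

/-- The conditional probability that the root spin is `i` given the depth-`n` configuration
`s` (Bayes' rule). -/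
noncomputable def post (q d : ℕ) (lam : ℝ) (n : ℕ) (i : Fin q) (s : Conf q d n) : ℝ :=
  (1 / (q : ℝ)) * lik q d lam n i s / marg q d lam n s

/-- The quantity `a_n` of the problem: the expected total-variation distance between the
conditional law of the root spin given the spins at depth `n` and the uniform law. -/
noncomputable def a (q d : ℕ) (lam : ℝ) (n : ℕ) : ℝ :=
  ∑ s : Conf q d n, marg q d lam n s * ((1 / 2) * ∑ i : Fin q, |post q d lam n i s - 1 / (q : ℝ)|)

end Vale.Agent.Lib.P154
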