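import Vale.Agent.Lib.P154.Defs

/-!
# P154: a robust freezing decoder for the four-state Potts channel on the 9-ary tree
-/

namespace Vale.Agent.Lib.P154

open Finset

/-! ### The channel -/

lemma chan_self (lam : ℝ) (i : Fin 4) : chan 4 lam i i = (1 + 3 * lam) / 4 := by
  unfold chan; simp; ring

lemma chan_ne (lam : ℝ) {i j : Fin 4} (h : i ≠ j) : chan 4 lam i j = (1 - lam) / 4 := by
  unfold chan; simp [h]

lemma chan_nonneg {lam : ℝ} (h1 : -1 / 3 ≤ lam) (h2 : lam ≤ 1) (i j : Fin 4) :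
    0 ≤ chan 4 lam i j := by
  by_cases h : i = j
  · subst h; rw [chan_self]; linarith
  · rw [chan_ne lam h]; linarith

lemma chan_sum (lam : ℝ) (i : Fin 4) : ∑ j : Fin 4, chan 4 lam i j = 1 := by
  unfold chan
  rw [Finset.sum_add_distrib, ← Finset.mul_sum]
  simp
  ring

/-! ### The likelihood -/

/-- The law of the configuration below one child, given the colour of the parent. -/
noncomputable def edge (lam : ℝ) (n : ℕ) (i : Fin 4) (s : Conf 4 9 n) : ℝ :=
  ∑ j : Fin 4, chan 4 lam i j * lik 4 9 lam n j s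

lemma lik_zero (lam : ℝ) (i : Fin 4) (s : Fin 4) :
    lik 4 9 lam 0 i s = if s = i then 1 else 0 := rfl

lemma lik_succ (lam : ℝ) (n : ℕ) (i : Fin 4) (s : Conf 4 9 (n + 1)) :
    lik 4 9 lam (n + 1) i s = ∏ k : Fin 9, edge lam n i (s k) := rfl

lemma sum_conf_zero (F : Conf 4 9 0 → ℝ) :
    ∑ s : Conf 4 9 0, F s = ∑ s : Fin 4, F s := rfl

lemma sum_conf_succ (n : ℕ) (F : Conf 4 9 (n + 1) → ℝ) :
    ∑ s : Conf 4 9 (n + 1), F s = ∑ s : Fin 9 → Conf 4 9 n, F s := rfl

/-- Product formula: the subtrees below the nine children are independent. -/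
lemma sum_prod_children (n : ℕ) (f : Conf 4 9 n → ℝ) :
    ∑ s : Conf 4 9 (n + 1), ∏ k : Fin 9, f (s k) = (∑ x : Conf 4 9 n, f x) ^ 9 := by
  rw [sum_conf_succ, Fintype.sum_pow]

lemma lik_nonneg {lam : ℝ} (h1 : -1 / 3 ≤ lam) (h2 : lam ≤ 1) :
    ∀ (n : ℕ) (i : Fin 4) (s : Conf 4 9 n), 0 ≤ lik 4 9 lam n i s
  | 0, i, s => by
      show (0 : ℝ) ≤ if (show Fin 4 from s) = i then (1 : ℝ) else 0
      split_ifs <;> norm_num
  | n + 1, i, s => by
      rw [lik_succ]
      refine Finset.prod_nonneg fun k _ => ?_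
      exact Finset.sum_nonneg fun j _ => mul_nonneg (chan_nonneg h1 h2 i j)
        (lik_nonneg h1 h2 n j (s k))

lemma edge_nonneg {lam : ℝ} (h1 : -1 / 3 ≤ lam) (h2 : lam ≤ 1) (n : ℕ) (i : Fin 4)
    (s : Conf 4 9 n) : 0 ≤ edge lam n i s :=
  Finset.sum_nonneg fun j _ => mul_nonneg (chan_nonneg h1 h2 i j) (lik_nonneg h1 h2 n j s)

lemma edge_sum_mul (lam : ℝ) (n : ℕ) (i : Fin 4) (f : Conf 4 9 n → ℝ) :
    ∑ x : Conf 4 9 n, edge lam n i x * f x
      = ∑ j : Fin 4, chan 4 lam i j * ∑ x : Conf 4 9 n, lik 4 9 lam n j x * f x := by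
  unfold edge
  simp only [Finset.sum_mul, Finset.mul_sum]
  rw [Finset.sum_comm]
  refine Finset.sum_congr rfl fun j _ => Finset.sum_congr rfl fun x _ => ?_
  ring

lemma lik_sum (lam : ℝ) : ∀ (n : ℕ) (i : Fin 4), ∑ s : Conf 4 9 n, lik 4 9 lam n i s = 1
  | 0, i => by
      rw [sum_conf_zero]
      simp [lik_zero]
  | n + 1, i => by
      have h : ∑ x : Conf 4 9 n, edge lam n i x = 1 := by
        have := edge_sum_mul lam n i (fun _ => 1)
        simp only [mul_one] at this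
        rw [this]
        simp only [lik_sum lam n, mul_one]
        exact chan_sum lam i
      simp only [lik_succ]
      rw [sum_prod_children, h, one_pow]

lemma edge_sum (lam : ℝ) (n : ℕ) (i : Fin 4) : ∑ x : Conf 4 9 n, edge lam n i x = 1 := by
  have := edge_sum_mul lam n i (fun _ => 1)
  simp only [mul_one] at this
  rw [this]
  simp only [lik_sum lam n, mul_one]
  exact chan_sum lam i

/-! ### The decoder -/

/-- Indicator of the event that the decoder guesses colour `j`: at depth `0` the guess is the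
observed colour; at depth `n + 1` the guess is `j` when no child guesses `j` and every other
colour is guessed by some child. -/
noncomputable def ind : (n : ℕ) → Fin 4 → Conf 4 9 n → ℝ
  | 0, j, s => if (show Fin 4 from s) = j then 1 else 0
  | n + 1, j, s => (∏ k : Fin 9, (1 - ind n j (s k))) *
      ∏ c ∈ (univ : Finset (Fin 4)).erase j, (1 - ∏ k : Fin 9, (1 - ind n c (s k)))

/-- Indicator that no child guesses `c`. -/
noncomputable def miss (n : ℕ) (c : Fin 4) (s : Conf 4 9 (n + 1)) : ℝ :=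
  ∏ k : Fin 9, (1 - ind n c (s k))

lemma ind_succ (n : ℕ) (j : Fin 4) (s : Conf 4 9 (n + 1)) :
    ind (n + 1) j s = miss n j s * ∏ c ∈ (univ : Finset (Fin 4)).erase j, (1 - miss n c s) := rfl

lemma ind_mem : ∀ (n : ℕ) (j : Fin 4) (s : Conf 4 9 n), 0 ≤ ind n j s ∧ ind n j s ≤ 1
  | 0, j, s => by
      show (0 : ℝ) ≤ (if (show Fin 4 from s) = j then (1 : ℝ) else 0) ∧
        (if (show Fin 4 from s) = j then (1 : ℝ) else 0) ≤ 1
      split_ifs <;> norm_num
  | n + 1, j, s => by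
      have hm : ∀ c : Fin 4, 0 ≤ miss n c s ∧ miss n c s ≤ 1 := by
        intro c
        constructor
        · exact Finset.prod_nonneg fun k _ => by linarith [(ind_mem n c (s k)).2]
        · exact Finset.prod_le_one (fun k _ => by linarith [(ind_mem n c (s k)).2])
            (fun k _ => by linarith [(ind_mem n c (s k)).1])
      rw [ind_succ]
      constructor
      · exact mul_nonneg (hm j).1 (Finset.prod_nonneg fun c _ => by linarith [(hm c).2])
      · have h2 : ∏ c ∈ (univ : Finset (Fin 4)).erase j, (1 - miss n c s) ≤ 1 :=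
          Finset.prod_le_one (fun c _ => by linarith [(hm c).2]) (fun c _ => by linarith [(hm c).1])
        have h3 : 0 ≤ ∏ c ∈ (univ : Finset (Fin 4)).erase j, (1 - miss n c s) :=
          Finset.prod_nonneg fun c _ => by linarith [(hm c).2]
        nlinarith [(hm j).1, (hm j).2]

lemma miss_mem (n : ℕ) (c : Fin 4) (s : Conf 4 9 (n + 1)) : 0 ≤ miss n c s ∧ miss n c s ≤ 1 := by
  constructor
  · exact Finset.prod_nonneg fun k _ => by linarith [(ind_mem n c (s k)).2]
  · exact Finset.prod_le_one (fun k _ => by linarith [(ind_mem n c (s k)).2])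
      (fun k _ => by linarith [(ind_mem n c (s k)).1])

lemma one_sub_sum_le_prod {ι : Type*} (S : Finset ι) (v : ι → ℝ)
    (h : ∀ c ∈ S, 0 ≤ v c ∧ v c ≤ 1) :
    1 - ∑ c ∈ S, v c ≤ ∏ c ∈ S, (1 - v c) ∧ 0 ≤ ∏ c ∈ S, (1 - v c) ∧ ∏ c ∈ S, (1 - v c) ≤ 1 := by
  classical
  induction S using Finset.induction_on with
  | empty => simp
  | insert a S ha ih =>
    have ih' := ih fun c hc => h c (Finset.mem_insert_of_mem hc)
    have hva := h a (Finset.mem_insert_self a S)
    rw [Finset.sum_insert ha, Finset.prod_insert ha]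
    refine ⟨?_, ?_, ?_⟩
    · nlinarith [ih'.1, ih'.2.1, ih'.2.2, hva.1, hva.2]
    · exact mul_nonneg (by linarith [hva.2]) ih'.2.1
    · nlinarith [ih'.1, ih'.2.1, ih'.2.2, hva.1, hva.2]

lemma ind_succ_ge (n : ℕ) (j : Fin 4) (s : Conf 4 9 (n + 1)) :
    miss n j s - ∑ c ∈ (univ : Finset (Fin 4)).erase j, miss n c s ≤ ind (n + 1) j s := by
  rw [ind_succ]
  have h := one_sub_sum_le_prod ((univ : Finset (Fin 4)).erase j) (fun c => miss n c s)
    (fun c _ => miss_mem n c s)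
  have hs : 0 ≤ ∑ c ∈ (univ : Finset (Fin 4)).erase j, miss n c s :=
    Finset.sum_nonneg fun c _ => (miss_mem n c s).1
  nlinarith [h.1, h.2.1, h.2.2, (miss_mem n j s).1, (miss_mem n j s).2]

lemma ind_succ_le (n : ℕ) {i c : Fin 4} (h : c ≠ i) (s : Conf 4 9 (n + 1)) :
    ind (n + 1) c s ≤ miss n c s * (1 - miss n i s) := by
  rw [ind_succ]
  have hi : i ∈ (univ : Finset (Fin 4)).erase c := Finset.mem_erase.mpr ⟨fun e => h e.symm, Finset.mem_univ i⟩
  rw [← Finset.mul_prod_erase _ _ hi]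
  have h2 := one_sub_sum_le_prod (((univ : Finset (Fin 4)).erase c).erase i) (fun c => miss n c s)
    (fun c _ => miss_mem n c s)
  have h3 := miss_mem n c s
  have h4 := miss_mem n i s
  have h5 : 0 ≤ miss n c s * (1 - miss n i s) := mul_nonneg h3.1 (by linarith)
  nlinarith [h2.2.1, h2.2.2]

/-- `A lam n i j`: the probability that the decoder guesses `j` when the root colour is `i`. -/
noncomputable def A (lam : ℝ) (n : ℕ) (i j : Fin 4) : ℝ :=
  ∑ s : Conf 4 9 n, lik 4 9 lam n i s * ind n j s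

/-- `B lam n i c`: the probability that a given child guesses `c` when the root colour is `i`. -/
noncomputable def B (lam : ℝ) (n : ℕ) (i c : Fin 4) : ℝ :=
  ∑ x : Conf 4 9 n, edge lam n i x * ind n c x

lemma B_eq (lam : ℝ) (n : ℕ) (i c : Fin 4) :
    B lam n i c = ∑ j : Fin 4, chan 4 lam i j * A lam n j c := by
  unfold B A
  exact edge_sum_mul lam n i (fun x => ind n c x)

lemma sum_lik_succ_prod (lam : ℝ) (n : ℕ) (i : Fin 4) (f : Conf 4 9 n → ℝ) :
    ∑ s : Conf 4 9 (n + 1), lik 4 9 lam (n + 1) i s * ∏ k : Fin 9, f (s k)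
      = (∑ x : Conf 4 9 n, edge lam n i x * f x) ^ 9 := by
  rw [← sum_prod_children n (fun x => edge lam n i x * f x)]
  refine Finset.sum_congr rfl fun s _ => ?_
  rw [lik_succ, Finset.prod_mul_distrib]

lemma sum_lik_miss (lam : ℝ) (n : ℕ) (i c : Fin 4) :
    ∑ s : Conf 4 9 (n + 1), lik 4 9 lam (n + 1) i s * miss n c s = (1 - B lam n i c) ^ 9 := by
  unfold miss
  rw [sum_lik_succ_prod lam n i (fun x => 1 - ind n c x)]
  congr 1
  unfold B
  simp only [mul_sub, mul_one, Finset.sum_sub_distrib, edge_sum]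

lemma A_nonneg {lam : ℝ} (h1 : -1 / 3 ≤ lam) (h2 : lam ≤ 1) (n : ℕ) (i j : Fin 4) :
    0 ≤ A lam n i j :=
  Finset.sum_nonneg fun s _ => mul_nonneg (lik_nonneg h1 h2 n i s) (ind_mem n j s).1

lemma A_le_one {lam : ℝ} (h1 : -1 / 3 ≤ lam) (h2 : lam ≤ 1) (n : ℕ) (i j : Fin 4) :
    A lam n i j ≤ 1 := by
  rw [← lik_sum lam n i]
  refine Finset.sum_le_sum fun s _ => ?_
  have := lik_nonneg h1 h2 n i s
  nlinarith [(ind_mem n j s).2]

lemma B_nonneg {lam : ℝ} (h1 : -1 / 3 ≤ lam) (h2 : lam ≤ 1) (n : ℕ) (i j : Fin 4) :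
    0 ≤ B lam n i j :=
  Finset.sum_nonneg fun s _ => mul_nonneg (edge_nonneg h1 h2 n i s) (ind_mem n j s).1

lemma B_le_one {lam : ℝ} (h1 : -1 / 3 ≤ lam) (h2 : lam ≤ 1) (n : ℕ) (i j : Fin 4) :
    B lam n i j ≤ 1 := by
  rw [← edge_sum lam n i]
  refine Finset.sum_le_sum fun s _ => ?_
  have := edge_nonneg h1 h2 n i s
  nlinarith [(ind_mem n j s).2]

/-- Lower bound for the probability of a correct guess one level up. -/
lemma A_succ_self_ge {lam : ℝ} (h1 : -1 / 3 ≤ lam) (h2 : lam ≤ 1) (n : ℕ) (i : Fin 4) :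
    (1 - B lam n i i) ^ 9 - ∑ c ∈ (univ : Finset (Fin 4)).erase i, (1 - B lam n i c) ^ 9
      ≤ A lam (n + 1) i i := by
  have h : ∀ s : Conf 4 9 (n + 1),
      lik 4 9 lam (n + 1) i s * miss n i s
        - ∑ c ∈ (univ : Finset (Fin 4)).erase i, lik 4 9 lam (n + 1) i s * miss n c s
      ≤ lik 4 9 lam (n + 1) i s * ind (n + 1) i s := by
    intro s
    rw [← Finset.mul_sum, ← mul_sub]
    exact mul_le_mul_of_nonneg_left (ind_succ_ge n i s) (lik_nonneg h1 h2 (n + 1) i s)
  have h' := Finset.sum_le_sum fun s (_ : s ∈ (univ : Finset (Conf 4 9 (n + 1)))) => h s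
  rw [Finset.sum_sub_distrib, Finset.sum_comm, sum_lik_miss] at h'
  simp only [sum_lik_miss] at h'
  exact h'

lemma pow_sub_pow_le {x y X : ℝ} (hy : 0 ≤ y) (hxy : y ≤ x) (hX : x ≤ X) :
    ∀ m : ℕ, x ^ (m + 1) - y ^ (m + 1) ≤ (m + 1) * (x - y) * X ^ m
  | 0 => by simp
  | m + 1 => by
      have ih := pow_sub_pow_le hy hxy hX m
      have hx : 0 ≤ x := le_trans hy hxy
      have hX0 : 0 ≤ X := le_trans hx hX
      have e1 : x ^ (m + 1 + 1) - y ^ (m + 1 + 1)
          = x * (x ^ (m + 1) - y ^ (m + 1)) + (x - y) * y ^ (m + 1) := by ring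
      have e2 : y ^ (m + 1) ≤ X ^ (m + 1) := pow_le_pow_left₀ hy (le_trans hxy hX) _
      have e3 : x * (x ^ (m + 1) - y ^ (m + 1)) ≤ X * ((m + 1) * (x - y) * X ^ m) := by
        have e4 : 0 ≤ (m + 1 : ℝ) * (x - y) * X ^ m :=
          mul_nonneg (mul_nonneg (by positivity) (by linarith)) (pow_nonneg hX0 m)
        calc x * (x ^ (m + 1) - y ^ (m + 1)) ≤ x * ((m + 1) * (x - y) * X ^ m) :=
              mul_le_mul_of_nonneg_left ih hx
          _ ≤ X * ((m + 1) * (x - y) * X ^ m) := mul_le_mul_of_nonneg_right hX e4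
      have e5 : (x - y) * y ^ (m + 1) ≤ (x - y) * X ^ (m + 1) :=
        mul_le_mul_of_nonneg_left e2 (by linarith)
      rw [e1]
      have e6 : X * ((m + 1) * (x - y) * X ^ m) + (x - y) * X ^ (m + 1)
          = ((m + 1 : ℕ) + 1 : ℝ) * (x - y) * X ^ (m + 1) := by
        push_cast; ring
      linarith

/-- Upper bound for the probability of a wrong guess one level up. -/
lemma A_succ_ne_le {lam : ℝ} (h1 : -1 / 3 ≤ lam) (h2 : lam ≤ 1) (n : ℕ) {i c : Fin 4}
    (hc : c ≠ i) {X : ℝ} (hX : 1 - B lam n i c ≤ X) :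
    A lam (n + 1) i c ≤ 9 * B lam n i i * X ^ 8 := by
  -- first bound by the probability that no child guesses `c` but some child guesses `i`
  have h : ∀ s : Conf 4 9 (n + 1),
      lik 4 9 lam (n + 1) i s * ind (n + 1) c s ≤
        lik 4 9 lam (n + 1) i s * miss n c s
          - lik 4 9 lam (n + 1) i s * ∏ k : Fin 9, ((1 - ind n c (s k)) * (1 - ind n i (s k))) := by
    intro s
    have e : ∏ k : Fin 9, ((1 - ind n c (s k)) * (1 - ind n i (s k))) = miss n c s * miss n i s := by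
      unfold miss; rw [Finset.prod_mul_distrib]
    rw [e, ← mul_sub]
    have := mul_le_mul_of_nonneg_left (ind_succ_le n hc s) (lik_nonneg h1 h2 (n + 1) i s)
    calc lik 4 9 lam (n + 1) i s * ind (n + 1) c s
        ≤ lik 4 9 lam (n + 1) i s * (miss n c s * (1 - miss n i s)) := this
      _ = lik 4 9 lam (n + 1) i s * (miss n c s - miss n c s * miss n i s) := by ring
  have h' := Finset.sum_le_sum fun s (_ : s ∈ (univ : Finset (Conf 4 9 (n + 1)))) => h s
  rw [Finset.sum_sub_distrib, sum_lik_miss,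
    sum_lik_succ_prod lam n i (fun x => (1 - ind n c x) * (1 - ind n i x))] at h'
  set y : ℝ := ∑ x : Conf 4 9 n, edge lam n i x * ((1 - ind n c x) * (1 - ind n i x)) with hy
  have hy0 : 0 ≤ y := Finset.sum_nonneg fun x _ =>
    mul_nonneg (edge_nonneg h1 h2 n i x)
      (mul_nonneg (by linarith [(ind_mem n c x).2]) (by linarith [(ind_mem n i x).2]))
  have hy1 : y ≤ 1 - B lam n i c := by
    have : 1 - B lam n i c = ∑ x : Conf 4 9 n, edge lam n i x * (1 - ind n c x) := by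
      unfold B
      simp only [mul_sub, mul_one, Finset.sum_sub_distrib, edge_sum]
    rw [this]
    refine Finset.sum_le_sum fun x _ => mul_le_mul_of_nonneg_left ?_ (edge_nonneg h1 h2 n i x)
    nlinarith [(ind_mem n c x).1, (ind_mem n c x).2, (ind_mem n i x).1, (ind_mem n i x).2]
  have hy2 : 1 - B lam n i c - B lam n i i ≤ y := by
    have : 1 - B lam n i c - B lam n i i
        = ∑ x : Conf 4 9 n, edge lam n i x * (1 - ind n c x - ind n i x) := by
      unfold B
      simp only [mul_sub, mul_one, Finset.sum_sub_distrib, edge_sum]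
    rw [this]
    refine Finset.sum_le_sum fun x _ => mul_le_mul_of_nonneg_left ?_ (edge_nonneg h1 h2 n i x)
    nlinarith [(ind_mem n c x).1, (ind_mem n c x).2, (ind_mem n i x).1, (ind_mem n i x).2]
  have key := pow_sub_pow_le hy0 hy1 hX 8
  have hX0 : 0 ≤ X := le_trans (le_trans hy0 hy1) hX
  have : (1 - B lam n i c - y) * X ^ 8 ≤ B lam n i i * X ^ 8 :=
    mul_le_mul_of_nonneg_right (by linarith) (pow_nonneg hX0 8)
  have e9 : A lam (n + 1) i c ≤ (1 - B lam n i c) ^ 9 - y ^ 9 := h'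
  norm_num at key
  nlinarith

/-! ### The invariant region -/

lemma A_zero (lam : ℝ) (i j : Fin 4) : A lam 0 i j = if i = j then 1 else 0 := by
  unfold A
  rw [sum_conf_zero]
  have : ∀ s : Fin 4, lik 4 9 lam 0 i s * ind 0 j s
      = if s = i then (if i = j then (1 : ℝ) else 0) else 0 := by
    intro s
    show (if s = i then (1 : ℝ) else 0) * (if s = j then (1 : ℝ) else 0) = _
    by_cases h : s = i
    · subst h; simp
    · simp [h]
  simp only [this]
  simp

lemma sum_erase_le_three (i : Fin 4) (f : Fin 4 → ℝ) (M : ℝ)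
    (h : ∀ c, c ≠ i → f c ≤ M) : ∑ c ∈ (univ : Finset (Fin 4)).erase i, f c ≤ 3 * M := by
  have h1 : ∑ c ∈ (univ : Finset (Fin 4)).erase i, f c
      ≤ ∑ _c ∈ (univ : Finset (Fin 4)).erase i, M :=
    Finset.sum_le_sum fun c hc => h c (Finset.ne_of_mem_erase hc)
  have h2 : ((univ : Finset (Fin 4)).erase i).card = 3 := by
    rw [Finset.card_erase_of_mem (Finset.mem_univ i)]; simp
  rw [Finset.sum_const, h2] at h1
  simpa using h1

lemma B_self_le {lam : ℝ} (h1 : -1 / 3 ≤ lam) (h2 : lam ≤ -1 / 3 + 1 / 2000) (n : ℕ)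
    (hβ : ∀ i c : Fin 4, c ≠ i → A lam n i c ≤ 1 / 800) (i : Fin 4) :
    B lam n i i ≤ 13 / 8000 := by
  have hl : lam ≤ 1 := by linarith
  rw [B_eq, ← Finset.add_sum_erase _ _ (Finset.mem_univ i), chan_self]
  have e1 : ∑ j ∈ (univ : Finset (Fin 4)).erase i, chan 4 lam i j * A lam n j i
      ≤ 3 * ((1 - lam) / 4 * (1 / 800)) := by
    refine sum_erase_le_three i _ _ fun j hj => ?_
    rw [chan_ne lam (Ne.symm hj)]
    exact mul_le_mul_of_nonneg_left (hβ j i (Ne.symm hj)) (by linarith)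
  have e2 := A_le_one h1 hl n i i
  have e3 := A_nonneg h1 hl n i i
  nlinarith

lemma B_ne_ge {lam : ℝ} (h1 : -1 / 3 ≤ lam) (h2 : lam ≤ -1 / 3 + 1 / 2000) (n : ℕ)
    (hα : ∀ i : Fin 4, 4 / 5 ≤ A lam n i i) {i c : Fin 4} (hc : c ≠ i) :
    7997 / 30000 ≤ B lam n i c := by
  have hl : lam ≤ 1 := by linarith
  rw [B_eq]
  have e1 : chan 4 lam i c * A lam n c c ≤ ∑ j : Fin 4, chan 4 lam i j * A lam n j c :=
    Finset.single_le_sum (f := fun j => chan 4 lam i j * A lam n j c)
      (fun j _ => mul_nonneg (chan_nonneg h1 hl i j) (A_nonneg h1 hl n j c)) (Finset.mem_univ c)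
  rw [chan_ne lam (Ne.symm hc)] at e1
  have e2 := hα c
  nlinarith

theorem invariant {lam : ℝ} (h1 : -1 / 3 ≤ lam) (h2 : lam ≤ -1 / 3 + 1 / 2000) :
    ∀ n : ℕ, (∀ i : Fin 4, 4 / 5 ≤ A lam n i i) ∧
      (∀ i c : Fin 4, c ≠ i → A lam n i c ≤ 1 / 800)
  | 0 => by
      constructor
      · intro i; rw [A_zero]; simp; norm_num
      · intro i c hc; rw [A_zero]; simp [Ne.symm hc]
  | n + 1 => by
      obtain ⟨hα, hβ⟩ := invariant h1 h2 n
      have hl : lam ≤ 1 := by linarith
      constructor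
      · intro i
        have hB := B_self_le h1 h2 n hβ i
        have hB0 := B_nonneg h1 hl n i i
        have e1 : (7987 / 8000 : ℝ) ^ 9 ≤ (1 - B lam n i i) ^ 9 :=
          pow_le_pow_left₀ (by norm_num) (by linarith) 9
        have e2 : ∑ c ∈ (univ : Finset (Fin 4)).erase i, (1 - B lam n i c) ^ 9
            ≤ 3 * (22003 / 30000 : ℝ) ^ 9 := by
          refine sum_erase_le_three i _ _ fun c hc => ?_
          have := B_ne_ge h1 h2 n hα hc
          exact pow_le_pow_left₀ (by linarith [B_le_one h1 hl n i c]) (by linarith) 9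
        have e3 := A_succ_self_ge h1 hl n i
        have e4 : (4 / 5 : ℝ) ≤ (7987 / 8000 : ℝ) ^ 9 - 3 * (22003 / 30000 : ℝ) ^ 9 := by
          norm_num
        linarith
      · intro i c hc
        have hB := B_self_le h1 h2 n hβ i
        have hB0 := B_nonneg h1 hl n i i
        have hX : 1 - B lam n i c ≤ (22003 / 30000 : ℝ) := by
          have := B_ne_ge h1 h2 n hα hc
          linarith
        have e3 := A_succ_ne_le h1 hl n hc hX
        have e4 : 9 * (13 / 8000 : ℝ) * (22003 / 30000 : ℝ) ^ 8 ≤ 1 / 800 := by norm_num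
        have e5 : 9 * B lam n i i * (22003 / 30000 : ℝ) ^ 8
            ≤ 9 * (13 / 8000 : ℝ) * (22003 / 30000 : ℝ) ^ 8 := by
          have : (0 : ℝ) ≤ (22003 / 30000 : ℝ) ^ 8 := by positivity
          nlinarith
        linarith

/-! ### From the decoder to the total-variation distance -/

lemma marg_nonneg {lam : ℝ} (h1 : -1 / 3 ≤ lam) (h2 : lam ≤ 1) (n : ℕ) (s : Conf 4 9 n) :
    0 ≤ marg 4 9 lam n s :=
  Finset.sum_nonneg fun i _ => mul_nonneg (by norm_num) (lik_nonneg h1 h2 n i s)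

lemma a_term {lam : ℝ} (h1 : -1 / 3 ≤ lam) (h2 : lam ≤ 1) (n : ℕ) (s : Conf 4 9 n) :
    marg 4 9 lam n s * ((1 / 2) * ∑ i : Fin 4, |post 4 9 lam n i s - 1 / ((4 : ℕ) : ℝ)|)
      = (1 / 8) * ∑ i : Fin 4, |lik 4 9 lam n i s - marg 4 9 lam n s| := by
  have hm := marg_nonneg h1 h2 n s
  rcases hm.eq_or_lt with h0 | hpos
  · -- the configuration has probability zero: every likelihood vanishes
    have hz : ∀ i : Fin 4, lik 4 9 lam n i s = 0 := by
      intro i
      have hle : (1 / ((4 : ℕ) : ℝ)) * lik 4 9 lam n i s ≤ marg 4 9 lam n s :=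
        Finset.single_le_sum (f := fun i => (1 / ((4 : ℕ) : ℝ)) * lik 4 9 lam n i s)
          (fun j _ => mul_nonneg (by norm_num) (lik_nonneg h1 h2 n j s)) (Finset.mem_univ i)
      have := lik_nonneg h1 h2 n i s
      rw [← h0] at hle
      norm_num at hle
      linarith
    rw [← h0]
    simp [hz]
  · rw [Finset.mul_sum, Finset.mul_sum, Finset.mul_sum]
    refine Finset.sum_congr rfl fun i _ => ?_
    unfold post
    have e : (1 / ((4 : ℕ) : ℝ)) * lik 4 9 lam n i s / marg 4 9 lam n s - 1 / ((4 : ℕ) : ℝ)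
        = (lik 4 9 lam n i s - marg 4 9 lam n s) / (4 * marg 4 9 lam n s) := by
      field_simp
      push_cast
      ring
    rw [e, abs_div, abs_of_pos (by linarith : (0 : ℝ) < 4 * marg 4 9 lam n s)]
    field_simp
    ring

lemma a_eq {lam : ℝ} (h1 : -1 / 3 ≤ lam) (h2 : lam ≤ 1) (n : ℕ) :
    a 4 9 lam n = ∑ s : Conf 4 9 n, (1 / 8) * ∑ i : Fin 4, |lik 4 9 lam n i s - marg 4 9 lam n s| := by
  unfold a
  exact Finset.sum_congr rfl fun s _ => a_term h1 h2 n s

lemma sum_marg_ind (lam : ℝ) (n : ℕ) (i : Fin 4) :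
    ∑ s : Conf 4 9 n, marg 4 9 lam n s * ind n i s = (1 / 4) * ∑ j : Fin 4, A lam n j i := by
  unfold marg A
  simp only [Finset.sum_mul, Finset.mul_sum]
  rw [Finset.sum_comm]
  refine Finset.sum_congr rfl fun j _ => Finset.sum_congr rfl fun s _ => ?_
  push_cast
  ring

theorem a_ge {lam : ℝ} (h1 : -1 / 3 ≤ lam) (h2 : lam ≤ -1 / 3 + 1 / 2000) (n : ℕ) :
    1 / 4 ≤ a 4 9 lam n := by
  have hl : lam ≤ 1 := by linarith
  obtain ⟨hα, hβ⟩ := invariant h1 h2 n
  rw [a_eq h1 hl]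
  have step : ∀ s : Conf 4 9 n,
      (1 / 8) * ∑ i : Fin 4, (lik 4 9 lam n i s - marg 4 9 lam n s) * ind n i s
        ≤ (1 / 8) * ∑ i : Fin 4, |lik 4 9 lam n i s - marg 4 9 lam n s| := by
    intro s
    refine mul_le_mul_of_nonneg_left (Finset.sum_le_sum fun i _ => ?_) (by norm_num)
    have hi := ind_mem n i s
    have habs := le_abs_self (lik 4 9 lam n i s - marg 4 9 lam n s)
    have habs0 := abs_nonneg (lik 4 9 lam n i s - marg 4 9 lam n s)
    nlinarith
  refine le_trans ?_ (Finset.sum_le_sum fun s _ => step s)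
  rw [← Finset.mul_sum, Finset.sum_comm]
  have e : ∀ i : Fin 4, ∑ s : Conf 4 9 n, (lik 4 9 lam n i s - marg 4 9 lam n s) * ind n i s
      = A lam n i i - (1 / 4) * ∑ j : Fin 4, A lam n j i := by
    intro i
    simp only [sub_mul, Finset.sum_sub_distrib]
    rw [sum_marg_ind]
    rfl
  simp only [e]
  have e2 : ∀ i : Fin 4, (3 / 5 - 3 / 3200 : ℝ) ≤ A lam n i i - (1 / 4) * ∑ j : Fin 4, A lam n j i := by
    intro i
    rw [← Finset.add_sum_erase _ _ (Finset.mem_univ i)]
    have := sum_erase_le_three i (fun j => A lam n j i) (1 / 800)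
      (fun j hj => hβ j i (Ne.symm hj))
    have := hα i
    linarith
  have e3 : ∑ _i : Fin 4, (3 / 5 - 3 / 3200 : ℝ)
      ≤ ∑ i : Fin 4, (A lam n i i - (1 / 4) * ∑ j : Fin 4, A lam n j i) :=
    Finset.sum_le_sum fun i _ => e2 i
  simp at e3
  norm_num at e3 ⊢
  linarith

end Vale.Agent.Lib.P154
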